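import Mathlib
import Vale.Agent.H5.P037Defs
import Vale.Agent.H5.P037Lift

/-! P037: the polynomial ordered binary matrix-removal conjecture is false. -/

namespace Vale.Agent.Results.P037.Disproof

open Vale.Agent.H5.P037 Filter Topology

/-- Bridge used for the first half. -/
lemma not_poly {c C : ℝ} (hc : 0 < c)
    (h : ∀ L : ℕ, 1 ≤ L → c * (1 / (96 * (4 * (L : ℝ) + 3) ^ 2)) ^ C ≤ 64 / 2 ^ L) : False := by
  obtain ⟨k, hk⟩ := exists_nat_ge C
  have hlim := (tendsto_pow_const_div_const_pow_of_one_lt (2 * k)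
    (by norm_num : (1 : ℝ) < 2)).const_mul (64 * 4704 ^ k)
  rw [mul_zero] at hlim
  have hev : ∀ᶠ L : ℕ in atTop, c ≤ 64 * 4704 ^ k * ((L : ℝ) ^ (2 * k) / 2 ^ L) := by
    filter_upwards [eventually_ge_atTop 1] with L hL
    have hLr : (1 : ℝ) ≤ L := by exact_mod_cast hL
    have h1 := h L hL
    have hb : 96 * (4 * (L : ℝ) + 3) ^ 2 ≤ 4704 * (L : ℝ) ^ 2 := by nlinarith
    have hpos : 0 < 96 * (4 * (L : ℝ) + 3) ^ 2 := by positivity
    have hinv : 1 / (4704 * (L : ℝ) ^ 2) ≤ 1 / (96 * (4 * (L : ℝ) + 3) ^ 2) :=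
      one_div_le_one_div_of_le hpos hb
    have hle1 : 1 / (96 * (4 * (L : ℝ) + 3) ^ 2) ≤ 1 := by
      rw [div_le_one hpos]; nlinarith
    have h2 : (1 / (96 * (4 * (L : ℝ) + 3) ^ 2)) ^ (k : ℝ) ≤
        (1 / (96 * (4 * (L : ℝ) + 3) ^ 2)) ^ C :=
      Real.rpow_le_rpow_of_exponent_ge (by positivity) hle1 hk
    rw [Real.rpow_natCast] at h2
    have h3 : (1 / (4704 * (L : ℝ) ^ 2)) ^ k ≤ (1 / (96 * (4 * (L : ℝ) + 3) ^ 2)) ^ k :=
      pow_le_pow_left₀ (by positivity) hinv k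
    have h4 : c * (1 / (4704 * (L : ℝ) ^ 2)) ^ k ≤ 64 / 2 ^ L :=
      (mul_le_mul_of_nonneg_left (h3.trans h2) hc.le).trans h1
    rw [one_div, inv_pow, ← div_eq_mul_inv, div_le_iff₀ (by positivity)] at h4
    calc c ≤ 64 / 2 ^ L * (4704 * (L : ℝ) ^ 2) ^ k := h4
      _ = 64 * 4704 ^ k * ((L : ℝ) ^ (2 * k) / 2 ^ L) := by
          rw [mul_pow, ← pow_mul]; ring
  exact absurd (ge_of_tendsto hlim hev) (not_le.mpr hc)

/-- The polynomial ordered binary matrix-removal conjecture is false; indeed for the `3 × 3`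
pattern `H3 = J - I` the removal bound is at best exponential in `1 / √ε`. -/
theorem result :
    (¬ ∀ k : ℕ, 1 ≤ k → ∀ H : Matrix (Fin k) (Fin k) Bool,
      ∃ c C : ℝ, 0 < c ∧ 0 < C ∧
        ∀ n : ℕ, 1 ≤ n → ∀ ε : ℝ, 0 < ε → ε < 1 → ∀ A : Matrix (Fin n) (Fin n) Bool,
          ε ≤ distFree H A → c * ε ^ C * (n : ℝ) ^ (2 * k) ≤ (numCopies H A : ℝ)) ∧
    (∀ ε : ℝ, 0 < ε → ε < 1 / 10 ^ 6 → ∃ n₀ : ℕ, ∀ n : ℕ, n₀ ≤ n →
      ∃ A : Matrix (Fin n) (Fin n) Bool, ε ≤ distFree H3 A ∧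
        (numCopies H3 A : ℝ) ≤ (2 : ℝ) ^ (-(1 / (100 * Real.sqrt ε))) * (n : ℝ) ^ 6) := by
  constructor
  · intro hall
    obtain ⟨c, C, hc, hC, h⟩ := hall 3 (by norm_num) H3
    refine not_poly (C := C) hc (fun L hL => ?_)
    have hn : 0 < nn L := by unfold nn; positivity
    obtain ⟨A, hA1, hA2⟩ := main hL (le_refl (nn L ^ 2))
    have hpos : (0 : ℝ) < 1 / (96 * (4 * (L : ℝ) + 3) ^ 2) := by positivity
    have hlt : 1 / (96 * (4 * (L : ℝ) + 3) ^ 2) < 1 := by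
      rw [div_lt_one (by positivity)]; nlinarith [(Nat.cast_nonneg L : (0 : ℝ) ≤ L)]
    have h1 := (h (nn L ^ 2) (Nat.pos_of_ne_zero (by positivity)) _ hpos hlt A hA1).trans hA2
    have hn6 : (0 : ℝ) < ((nn L ^ 2 : ℕ) : ℝ) ^ 6 := by positivity
    exact le_of_mul_le_mul_right h1 hn6
  · intro ε hε hε1
    have hs : 0 < Real.sqrt ε := Real.sqrt_pos.mpr hε
    have hs2 : Real.sqrt ε ^ 2 = ε := Real.sq_sqrt hε.le
    have hs1 : Real.sqrt ε < 1 / 1000 := by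
      rw [Real.sqrt_lt' (by norm_num)]; norm_num at hε1 ⊢; exact hε1
    set s := Real.sqrt ε with hsdef
    set L := ⌊1 / (50 * s)⌋₊ with hL
    have hL1 : (L : ℝ) ≤ 1 / (50 * s) := Nat.floor_le (by positivity)
    have hL2 : 1 / (50 * s) < L + 1 := Nat.lt_floor_add_one _
    have hinv : 1000 < 1 / s := by
      rw [lt_div_iff₀ hs]; linarith
    have h50 : 1 / (50 * s) = (1 / s) / 50 := by field_simp
    have h100 : 1 / (100 * s) = (1 / s) / 100 := by field_simp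
    rw [h50] at hL1 hL2
    have hLpos : 1 ≤ L := by
      by_contra hcon
      have : L = 0 := by omega
      rw [this, Nat.cast_zero] at hL2
      linarith
    refine ⟨nn L ^ 2, fun n hn => ?_⟩
    obtain ⟨A, hA1, hA2⟩ := main hLpos hn
    refine ⟨A, le_trans ?_ hA1, hA2.trans ?_⟩
    · have h4 : 4 * (L : ℝ) + 3 ≤ (1 / s) / 10 := by linarith
      have h5 : (4 * (L : ℝ) + 3) ^ 2 ≤ ((1 / s) / 10) ^ 2 :=
        pow_le_pow_left₀ (by positivity) h4 2
      rw [le_div_iff₀ (by positivity)]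
      have h6 : ε * (96 * (4 * (L : ℝ) + 3) ^ 2) ≤ ε * (96 * ((1 / s) / 10) ^ 2) := by
        apply mul_le_mul_of_nonneg_left _ hε.le
        linarith
      refine h6.trans ?_
      rw [← hs2]
      field_simp
      norm_num
    · apply mul_le_mul_of_nonneg_right _ (by positivity)
      have h7 : (64 : ℝ) / 2 ^ L = 2 ^ ((6 : ℝ) - L) := by
        rw [Real.rpow_sub (by norm_num), Real.rpow_natCast]
        norm_num
      rw [h7]
      apply Real.rpow_le_rpow_of_exponent_le (by norm_num)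
      rw [h100]
      linarith

end Vale.Agent.Results.P037.Disproof
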